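import Vale.Agent.P032.S5.H394.Arc
import Vale.Agent.P032.S5.H172.Rhombus

/-!
# P032: ends of exact arcs

`OEnd T z v o`: `v` has three colours and is an end of an exact arc of `S(z)`, `|T z| = 4`, the arc
being `z + (v - z) cis (-(o t))`, `t > 0` small.  `OEnd.far`: the other end; `OEnd.unique`: the sign `o`
is unique when `S(z)` has a point with the complementary palette.
-/

open Set Filter Topology Metric

noncomputable section

namespace Vale.Agent.P032.Six

variable {k : ℕ} {U : Fin k → Set ℂ} {T : ℂ → Set (Fin k)}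

/-- `v` is an end of an exact arc of `S(z)` -/
def OEnd (T : ℂ → Set (Fin k)) (z v : ℂ) (o : ℝ) : Prop :=
  (o = 1 ∨ o = -1) ∧ dist v z = 1 ∧ (T z).ncard = 4 ∧ (T v).ncard = 3 ∧ (T z ∩ T v).ncard = 2 ∧
    ∃ ε > 0, ∀ t ∈ Ioo 0 ε, T (z + (v - z) * cis (-(o * t))) = T z ∩ T v

theorem cis_add394 (s t : ℝ) : cis (s + t) = cis s * cis t := by
  rw [cis, cis, cis, ← Complex.exp_add]; congr 1; push_cast; ring

theorem cis_zero394 : cis 0 = 1 := by simp [cis]

/-- points of the unit circle about `z` near `v` -/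
theorem eventually_circle {z v : ℂ} (hv : dist v z = 1) {p : ℂ → Prop} :
    (∀ᶠ q in 𝓝[sphere z 1] v, p q) ↔ ∀ᶠ t : ℝ in 𝓝 0, p (z + (v - z) * cis t) := by
  have hn : ‖v - z‖ = 1 := by rw [← dist_eq_norm]; exact hv
  have hne : v - z ≠ 0 := by
    intro h; rw [h, norm_zero] at hn; exact one_ne_zero hn.symm
  constructor
  · intro h
    have h1 : Tendsto (fun t : ℝ => z + (v - z) * cis t) (𝓝 0) (𝓝[sphere z 1] v) := by
      refine tendsto_nhdsWithin_iff.2 ⟨?_, Eventually.of_forall fun t => ?_⟩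
      · have h2 : Continuous fun t : ℝ => z + (v - z) * cis t :=
          continuous_const.add (continuous_const.mul continuous_cis)
        have h3 := h2.tendsto 0
        rw [cis_zero394, mul_one, add_sub_cancel] at h3
        exact h3
      · show dist (z + (v - z) * cis t) z = 1
        rw [dist_eq_norm, add_sub_cancel_left, norm_mul, hn, norm_cis, one_mul]
    exact h1.eventually h
  · intro h
    have h1 : Tendsto (fun q : ℂ => Complex.arg ((q - z) / (v - z))) (𝓝[sphere z 1] v) (𝓝 0) := by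
      have h2 : ContinuousAt (fun q : ℂ => Complex.arg ((q - z) / (v - z))) v := by
        refine ContinuousAt.comp (g := Complex.arg) ?_ (by fun_prop)
        rw [div_self hne]
        exact Complex.continuousAt_arg (by simp [Complex.slitPlane])
      have h3 := h2.tendsto
      rw [div_self hne, Complex.arg_one] at h3
      exact h3.mono_left nhdsWithin_le_nhds
    filter_upwards [h1.eventually h, self_mem_nhdsWithin] with q hq hqS
    have h4 : ‖(q - z) / (v - z)‖ = 1 := by
      rw [norm_div, hn, div_one, ← dist_eq_norm]; exact hqS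
    have h5 : cis (Complex.arg ((q - z) / (v - z))) = (q - z) / (v - z) := by
      have := Complex.norm_mul_exp_arg_mul_I ((q - z) / (v - z))
      rw [h4, Complex.ofReal_one, one_mul] at this
      exact this
    rw [h5, mul_div_cancel₀ _ hne, add_sub_cancel] at hq
    exact hq

/-- two-sided arc around `v` from two one-sided ones -/
theorem eventually_circle_of {z v : ℂ} (hv : dist v z = 1) {p : ℂ → Prop} (h0 : p v)
    {ε₁ ε₂ : ℝ} (hε₁ : 0 < ε₁) (hε₂ : 0 < ε₂)
    (h1 : ∀ t ∈ Ioo 0 ε₁, p (z + (v - z) * cis (-(1 * t))))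
    (h2 : ∀ t ∈ Ioo 0 ε₂, p (z + (v - z) * cis (-((-1) * t)))) :
    ∀ᶠ q in 𝓝[sphere z 1] v, p q := by
  rw [eventually_circle hv]
  filter_upwards [Ioo_mem_nhds (show -ε₁ < 0 by linarith) hε₂] with t ht
  rcases lt_trichotomy t 0 with h3 | h3 | h3
  · have := h1 (-t) ⟨by linarith, by linarith [ht.1]⟩
    rwa [one_mul, neg_neg] at this
  · rw [h3, cis_zero394, mul_one, add_sub_cancel]; exact h0
  · have := h2 t ⟨h3, ht.2⟩
    rwa [neg_one_mul, neg_neg] at this

namespace OEnd

theorem dist {z v : ℂ} {o : ℝ} (h : OEnd T z v o) : dist v z = 1 := h.2.1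

/-- the shared pair -/
theorem sub_pair {z v q : ℂ} {o o' : ℝ} (hv : OEnd T z v o) (hq : OEnd T z q o')
    (hd : Disjoint (T z ∩ T v) (T q)) : T z ∩ T q = T z \ T v := by
  refine Set.eq_of_subset_of_ncard_le ?_ ?_ (Set.toFinite _)
  · rintro i ⟨h1, h2⟩
    exact ⟨h1, fun h3 => Set.disjoint_left.1 hd ⟨h1, h3⟩ h2⟩
  · have h1 := Set.ncard_inter_add_ncard_sdiff_eq_ncard (T z) (T v) (Set.toFinite _)
    have h2 := hv.2.2.1
    have h3 := hv.2.2.2.2.1
    have h4 := hq.2.2.2.2.1
    omega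

/-- **The other end of the arc.** -/
theorem far (h : Irr U T) {z v q : ℂ} {o o' : ℝ} (h3 : ∀ y, Dist.dist y z = 1 → (T y).ncard ≤ 3)
    (hv : OEnd T z v o) (hq : OEnd T z q o') (hd : Disjoint (T z ∩ T v) (T q)) :
    ∃ l, 0 < l ∧ l ≤ Real.pi / 3 ∧ OEnd T z (z + (v - z) * cis (-(o * l))) (-o) ∧
      T z ∩ T (z + (v - z) * cis (-(o * l))) = T z ∩ T v ∧
      ∀ t ∈ Ioo 0 l, T (z + (v - z) * cis (-(o * t))) = T z ∩ T v := by
  obtain ⟨ho, hvz, hz4, hv3, hp2, ε, hε, harc⟩ := hv
  have hn : ‖v - z‖ = 1 := by rw [← dist_eq_norm]; exact hvz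
  obtain ⟨θ, hθ⟩ := exists_cis hn
  have key : ∀ t : ℝ, z + (v - z) * cis (-(o * t)) = z + cis (θ - o * t) := by
    intro t
    rw [hθ, sub_eq_add_neg θ, cis_add394]
  have hQ := sub_pair ⟨ho, hvz, hz4, hv3, hp2, ε, hε, harc⟩ hq hd
  obtain ⟨ho', hqz, -, hq3, hq2, ε', hε', harc'⟩ := hq
  set t' := min (ε' / 2) 1 with ht'
  have ht'0 : 0 < t' := lt_min (by linarith) one_pos
  have ht'1 : t' ≤ 1 := min_le_right _ _
  have ht'ε : t' < ε' := lt_of_le_of_lt (min_le_left _ _) (by linarith)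
  have hTy := harc' t' ⟨ht'0, ht'ε⟩
  set y := z + (q - z) * cis (-(o' * t')) with hy
  have hnq : ‖q - z‖ = 1 := by rw [← dist_eq_norm]; exact hqz
  have hqne : q - z ≠ 0 := by
    intro h5; rw [h5, norm_zero] at hnq; exact one_ne_zero hnq.symm
  have hyz : Dist.dist y z = 1 := by
    rw [dist_eq_norm, hy, add_sub_cancel_left, norm_mul, hnq, norm_cis, one_mul]
  have hzPQ : T z = (T z ∩ T v) ∪ (T z \ T v) := (Set.inter_union_sdiff _ _).symm
  have hQ2 : (T z \ T v).ncard = 2 := by rw [← hQ]; exact hq2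
  obtain ⟨l, g, hl0, hεl, hl, hlt, hTl, hg⟩ := h.exists_arc_end (z := z) (P := T z ∩ T v)
    (Q := T z \ T v) (θ := θ) (o := o) (ε := ε) ho hp2 hzPQ hε
    (fun t ht => by rw [← key]; exact harc t ht) h3 hQ2 (y₁ := q) (y₂ := y) hqz hyz
    (fun h5 => by
      have h6 : (T q).ncard = (T z ∩ T q).ncard := by rw [← hTy, ← h5]
      omega)
    (fun h5 => by
      have h6 : (q - z) * (1 + cis (-(o' * t'))) = 0 := by rw [hy] at h5; linear_combination h5
      rcases mul_eq_zero.1 h6 with h7 | h7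
      · exact hqne h7
      · have h8 := congrArg Complex.re h7
        have h9 : (cis (-(o' * t'))).re = Real.cos (-(o' * t')) := by
          rw [cis, Complex.exp_ofReal_mul_I_re]
        rw [Complex.add_re, Complex.one_re, Complex.zero_re, h9, Real.cos_neg] at h8
        have h10 : Real.cos (o' * t') = Real.cos t' := by
          rcases ho' with rfl | rfl
          · rw [one_mul]
          · rw [neg_one_mul, Real.cos_neg]
        rw [h10] at h8
        have h11 : 0 < Real.cos t' := Real.cos_pos_of_mem_Ioo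
          ⟨by linarith [Real.pi_gt_three], by linarith [Real.pi_gt_three]⟩
        linarith)
    (by rw [← hQ]; exact inter_subset_right) (by rw [hTy, hQ])
  have hgP : g ∉ T z ∩ T v := fun h5 => hg h5.1
  have hTl' : T (z + (v - z) * cis (-(o * l))) = insert g (T z ∩ T v) := by rw [key]; exact hTl
  have hint : T z ∩ T (z + (v - z) * cis (-(o * l))) = T z ∩ T v := by
    rw [hTl']
    ext i
    simp only [mem_inter_iff, mem_insert_iff]
    constructor
    · rintro ⟨h5, rfl | h6⟩
      · exact absurd h5 hg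
      · exact h6
    · intro h5
      exact ⟨h5.1, Or.inr h5⟩
  refine ⟨l, hl0, hl, ⟨?_, ?_, hz4, ?_, ?_, l, hl0, fun t ht => ?_⟩, hint, fun t ht => ?_⟩
  · rcases ho with rfl | rfl
    · right; rfl
    · left; norm_num
  · rw [dist_eq_norm, add_sub_cancel_left, norm_mul, hn, norm_cis, one_mul]
  · rw [hTl', Set.ncard_insert_of_notMem hgP (Set.toFinite _), hp2]
  · rw [hint]; exact hp2
  · rw [hint]
    have h5 := hlt (l - t) ⟨by linarith [ht.2], by linarith [ht.1]⟩
    rw [← key] at h5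
    rw [← h5]
    congr 1
    rw [add_sub_cancel_left, mul_assoc, ← cis_add394]
    congr 3
    ring
  · rw [key]; exact hlt t ht

/-- a colour on both sides: partners are on one line -/
theorem two_sides (h : Irr U T) {z v w : ℂ} (h1 : OEnd T z v 1) (h2 : OEnd T z v (-1)) {x : Fin k}
    (hx : x ∈ T z ∩ T v) (hw : Dist.dist v w = 1) (hxw : x ∈ Pal U w) : w = z ∨ w + z = 2 * v := by
  obtain ⟨-, hvz, -, -, -, ε₁, hε₁, h1⟩ := h1
  obtain ⟨-, -, -, -, -, ε₂, hε₂, h2⟩ := h2
  refine h.mx.partner_line (u := z) (p := v) (t := x) hvz ?_ hw hxw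
  have h3 : ∀ᶠ q in 𝓝[sphere z 1] v, x ∈ T q := by
    refine eventually_circle_of hvz hx.2 hε₁ hε₂ (fun t ht => ?_) fun t ht => ?_
    · rw [h1 t ht]; exact hx
    · rw [h2 t ht]; exact hx
  exact h3.mono fun q hq => h.sub q hq

/-- exact arcs accumulate at an end -/
theorem acc {z v : ℂ} {o : ℝ} (hv : OEnd T z v o) : Acc T z (T z ∩ T v) v := by
  obtain ⟨ho, hvz, -, -, -, ε, hε, harc⟩ := hv
  have hn : ‖v - z‖ = 1 := by rw [← dist_eq_norm]; exact hvz
  intro V hV
  have hc : Continuous fun t : ℝ => z + (v - z) * cis (-(o * t)) :=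
    continuous_const.add (continuous_const.mul (continuous_cis.comp (by fun_prop)))
  have h1 : ∀ᶠ t in 𝓝 (0 : ℝ), z + (v - z) * cis (-(o * t)) ∈ V := by
    refine hc.continuousAt.eventually ?_
    show V ∈ 𝓝 (z + (v - z) * cis (-(o * 0)))
    rw [mul_zero, neg_zero, cis_zero394, mul_one, add_sub_cancel]
    exact hV
  obtain ⟨δ, hδ, hball⟩ := Metric.eventually_nhds_iff.1 h1
  set s := min δ ε / 2 with hs
  have hs0 : 0 < s := by have := lt_min hδ hε; positivity
  have hsδ : s < δ := by have := min_le_left δ ε; linarith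
  have hsε : s < ε := by have := min_le_right δ ε; linarith
  have hyz : Dist.dist (z + (v - z) * cis (-(o * s))) z = 1 := by
    rw [dist_eq_norm, add_sub_cancel_left, norm_mul, hn, norm_cis, one_mul]
  refine ⟨_, hball (y := s) (by rw [Real.dist_eq, sub_zero, abs_of_pos hs0]; exact hsδ), hyz, ?_⟩
  rw [eventually_circle hyz]
  have h2 : ∀ᶠ t in 𝓝 (0 : ℝ), s - o * t ∈ Ioo 0 ε := by
    have h3 : Continuous fun t : ℝ => s - o * t := by fun_prop
    refine h3.continuousAt.eventually (Ioo_mem_nhds ?_ ?_)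
    · simpa using hs0
    · simpa using hsε
  filter_upwards [h2] with t ht
  rw [← harc _ ht]
  congr 1
  rw [add_sub_cancel_left, mul_assoc, ← cis_add394]
  congr 3
  rcases ho with rfl | rfl <;> ring

/-- **The sign of an end is unique**, if `S(z)` has a point `q` with the complementary palette (six
colours covered by `T v` and `T q`). -/
theorem unique (h : Irr U T) {z v q : ℂ} {o o' : ℝ} (h1 : OEnd T z v o) (h2 : OEnd T z v o')
    (hq : Dist.dist q z = 1) (h3q : (T q).ncard ≤ 3) (hcov : ∀ i, i ∈ T v ∨ i ∈ T q)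
    (hdis : Disjoint (T v) (T q)) (hop : v + q ≠ 2 * z) (h4 : (T (v + q - z)).ncard = 4) :
    o = o' := by
  have key : ∀ (_ : OEnd T z v 1) (_ : OEnd T z v (-1)), False := by
    intro h1 h2
    have h3v : (T v).ncard = 3 := h1.2.2.2.1
    have hp2 : (T z ∩ T v).ncard = 2 := h1.2.2.2.2.1
    have hvq : v ≠ q := by
      rintro rfl
      obtain ⟨i, hi⟩ := h.ne v
      exact Set.disjoint_left.1 hdis hi hi
    obtain ⟨g1, g2, g3, g4⟩ := Irr.rh_geo h1.dist hq hvq hop
    obtain ⟨a, b, hab, hP⟩ := Set.ncard_eq_two.1 hp2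
    obtain ⟨e, he⟩ : (T v \ (T z ∩ T v)).Nonempty := by
      rw [← Set.ncard_pos (Set.toFinite _)]
      have := Set.ncard_sdiff (inter_subset_right : T z ∩ T v ⊆ T v) (Set.toFinite _)
      omega
    have hTv : T v = {e, a, b} := by
      symm
      refine Set.eq_of_subset_of_ncard_le ?_ ?_ (Set.toFinite _)
      · rw [← hP]; exact insert_subset he.1 inter_subset_right
      · rw [← hP, Set.ncard_insert_of_notMem he.2 (Set.toFinite _)]; omega
    have hea : e ≠ a := fun h5 => he.2 (by rw [hP, h5]; simp)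
    have heb : e ≠ b := fun h5 => he.2 (by rw [hP, h5]; simp)
    have hA := h1.acc
    rw [hP] at hA
    have hx : ∃ x ∈ T z ∩ T v, x ∈ T (v + q - z) := by
      rcases h.rh_side h3v.le h3q hcov hdis hvq g1 g2 g3 hTv hea heb hab g4 hA h4 with
        ⟨h5, -, -⟩ | ⟨h5, -, -⟩
      · exact ⟨a, by rw [hP]; simp, (h5 ▸ (by simp : a ∈ ({e, a} : Set (Fin k))) :
          a ∈ T (v + q - z) ∩ T v).1⟩
      · exact ⟨b, by rw [hP]; simp, (h5 ▸ (by simp : b ∈ ({e, b} : Set (Fin k))) :
          b ∈ T (v + q - z) ∩ T v).1⟩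
    obtain ⟨x, hx1, hx2⟩ := hx
    rcases two_sides h h1 h2 hx1 (by rw [dist_comm]; exact g1) (h.sub _ hx2) with h5 | h5
    · exact hop (by linear_combination h5)
    · exact hvq (by linear_combination -h5)
  rcases h1.1 with rfl | rfl <;> rcases h2.1 with rfl | rfl
  · rfl
  · exact (key h1 h2).elim
  · exact (key h2 h1).elim
  · rfl

end OEnd

end Vale.Agent.P032.Six
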