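import Vale.Agent.P032.S5.H483.Irr

/-!
# P032: maximal exact arcs of a unit circle

`z` with `P ⊆ T z`, `P` two colours, `T = P` on an open arc of `S(z)` starting at an angle `θ`: the arc
goes on up to a length at most `π / 3`, and ends at a point with a third colour.
-/

open Set Filter Topology Metric

noncomputable section

namespace Vale.Agent.P032.Six

variable {k : ℕ} {U : Fin k → Set ℂ} {T : ℂ → Set (Fin k)}

/-- two points of a unit circle at angle `π / 3` -/
theorem dist_cis_third (z : ℂ) (a b : ℝ) (h : a - b = Real.pi / 3 ∨ a - b = -(Real.pi / 3)) :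
    dist (z + cis a) (z + cis b) = 1 := by
  have h1 : cis a - cis b = cis b * (cis (a - b) - 1) := by
    have : cis a = cis b * cis (a - b) := by
      rw [cis, cis, cis, ← Complex.exp_add]; congr 1; push_cast; ring
    rw [this]; ring
  rw [dist_eq_norm]
  have e : z + cis a - (z + cis b) = cis a - cis b := by ring
  rw [e, h1, norm_mul, norm_cis, one_mul]
  have key : ∀ s : ℝ, (s = Real.pi / 3 ∨ s = -(Real.pi / 3)) → ‖cis s - 1‖ = 1 := by
    intro s hs
    have h2 : ‖cis s - 1‖ ^ 2 = 1 := by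
      rw [Complex.sq_norm, Complex.normSq_apply]
      have hre : (cis s).re = Real.cos s := by
        rw [cis, Complex.exp_ofReal_mul_I_re]
      have him : (cis s).im = Real.sin s := by
        rw [cis, Complex.exp_ofReal_mul_I_im]
      have hc : Real.cos s = 1 / 2 := by
        rcases hs with rfl | rfl
        · exact Real.cos_pi_div_three
        · rw [Real.cos_neg]; exact Real.cos_pi_div_three
      have hs2 := Real.sin_sq_add_cos_sq s
      simp only [Complex.sub_re, Complex.sub_im, Complex.one_re, Complex.one_im, hre, him]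
      nlinarith
    nlinarith [norm_nonneg (cis s - 1), sq_nonneg (‖cis s - 1‖ - 1)]
  exact key _ h

namespace Irr

/-- near a point of `S(z)` with palette inside a pair `P ⊆ T z` the circle carries exactly `P` -/
theorem pair_open (h : Irr U T) {z y : ℂ} {P : Set (Fin k)} (hP : P.ncard = 2) (hPz : P ⊆ T z)
    (hy : T y ⊆ P) : ∀ᶠ q in 𝓝[sphere z 1] y, T q = P := by
  filter_upwards [mem_nhdsWithin_of_mem_nhds (h.nhd y), self_mem_nhdsWithin] with q h1 h2
  have h3 : T q ⊆ P := h1.trans hy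
  by_contra hne
  have hss : T q ⊂ P := ssubset_of_subset_of_ne h3 hne
  have hc : (T q).ncard < P.ncard := Set.ncard_lt_ncard hss (Set.toFinite _)
  obtain ⟨i, hi⟩ := h.ne q
  have h4 : T q ⊆ {i} := fun m hm => by
    have : (T q).ncard ≤ 1 := by omega
    exact (Set.ncard_le_one (Set.toFinite _)).1 this m hm i hi
  exact h.mx.notMem' (h.mem_of_single h4) h2 (h.sub z (hPz (h3 hi)))

/-- **Arc lemma.** -/
theorem exists_arc (h : Irr U T) {z : ℂ} {P : Set (Fin k)} {θ o ε : ℝ} (ho : o = 1 ∨ o = -1)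
    (hP : P.ncard = 2) (hPz : P ⊆ T z) (hε : 0 < ε)
    (hg : ∀ t ∈ Ioo 0 ε, T (z + cis (θ - o * t)) = P) :
    ∃ l, 0 < l ∧ ε ≤ l ∧ l ≤ Real.pi / 3 ∧ (∀ t ∈ Ioo 0 l, T (z + cis (θ - o * t)) = P) ∧
      P ⊂ T (z + cis (θ - o * l)) := by
  set S : Set ℝ := {s | 0 < s ∧ ∀ t ∈ Ioo 0 s, T (z + cis (θ - o * t)) = P} with hS
  have hεS : ε ∈ S := ⟨hε, hg⟩
  have hpi := Real.pi_pos
  have hb : ∀ s ∈ S, s ≤ Real.pi / 3 := by
    intro s hs
    by_contra hcon
    push Not at hcon
    set t := (s - Real.pi / 3) / 2 with ht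
    have ht0 : 0 < t := by rw [ht]; linarith
    have h1 := hs.2 t ⟨ht0, by rw [ht]; linarith⟩
    have h2 := hs.2 (t + Real.pi / 3) ⟨by linarith, by rw [ht]; linarith⟩
    have hd : dist (z + cis (θ - o * (t + Real.pi / 3))) (z + cis (θ - o * t)) = 1 := by
      refine dist_cis_third z _ _ ?_
      rcases ho with rfl | rfl
      · right; ring
      · left; ring
    refine h.not_sub hd (by rw [h1, hP]; norm_num) ?_
    rw [h1, h2]
  have hbdd : BddAbove S := ⟨_, hb⟩
  set l := sSup S with hl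
  have hεl : ε ≤ l := le_csSup hbdd hεS
  have hl0 : 0 < l := hε.trans_le hεl
  have hlt : ∀ t ∈ Ioo 0 l, T (z + cis (θ - o * t)) = P := by
    intro t ht
    obtain ⟨s, hs, hts⟩ := exists_lt_of_lt_csSup ⟨ε, hεS⟩ ht.2
    exact hs.2 t ⟨ht.1, hts⟩
  refine ⟨l, hl0, hεl, csSup_le ⟨ε, hεS⟩ hb, hlt, ?_⟩
  have hcont : Continuous fun t : ℝ => z + cis (θ - o * t) :=
    continuous_const.add (continuous_cis.comp (by fun_prop))
  -- the end point contains `P`
  have hsub : P ⊆ T (z + cis (θ - o * l)) := by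
    intro i hi
    have hmem : z + cis (θ - o * l) ∈ closure {x | i ∈ T x} := by
      have h1 : l ∈ closure (Ioo 0 l) := by
        rw [closure_Ioo hl0.ne]; exact ⟨hl0.le, le_rfl⟩
      have h2 := hcont.continuousWithinAt (s := Ioo 0 l) (x := l)
      have h3 := h2.mem_closure_image h1
      refine closure_mono ?_ h3
      rintro _ ⟨t, ht, rfl⟩
      show i ∈ T (z + cis (θ - o * t))
      rw [hlt t ht]; exact hi
    rwa [(h.closed i).closure_eq] at hmem
  refine ssubset_of_subset_of_ne hsub fun heq => ?_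
  -- otherwise the arc goes on
  have h1 := h.pair_open (z := z) (y := z + cis (θ - o * l)) hP hPz heq.symm.subset
  have h2 : ∀ᶠ t in 𝓝 l, T (z + cis (θ - o * t)) = P := by
    have h3 : Tendsto (fun t : ℝ => z + cis (θ - o * t)) (𝓝 l)
        (𝓝[sphere z 1] (z + cis (θ - o * l))) :=
      tendsto_nhdsWithin_iff.2 ⟨hcont.tendsto l, Eventually.of_forall fun t => dist_add_cis z _⟩
    exact h3.eventually h1
  obtain ⟨δ, hδ, hball⟩ := Metric.eventually_nhds_iff.1 h2
  have h4 : l + δ / 2 ∈ S := by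
    refine ⟨by linarith, fun t ht => ?_⟩
    rcases lt_or_ge t l with h5 | h5
    · exact hlt t ⟨ht.1, h5⟩
    · refine hball ?_
      rw [Real.dist_eq, abs_of_nonneg (by linarith)]
      linarith [ht.2]
  have h5 := le_csSup hbdd h4
  linarith

/-- a three-coloured point of `S(z)` whose palette lies in the four colours of `T z`: every partner of
the fourth colour is on one line -/
theorem third_notMem (h : Irr U T) {z v q : ℂ} {d : Fin k} (hv : dist v z = 1)
    (h3 : (T v).ncard ≤ 3) (hz : T z ⊆ insert d (T v)) (hq : dist q z = 1) (hd : d ∈ Pal U q)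
    (h1 : q ≠ v) (h2 : q + v ≠ 2 * z) : False := by
  rcases h.lemmaX (u := v) (p := z) (by rw [dist_comm]; exact hv) h3 hz
    (by rw [dist_comm]; exact hq) hd with h4 | h4
  · exact h1 h4
  · exact h2 h4

/-- **Arc lemma**, four colours `T z = P ∪ Q`: the end point carries `P` and one colour outside `T z`,
provided that `S(z)` has arcs with both colours of `Q` -/
theorem exists_arc_end (h : Irr U T) {z : ℂ} {P Q : Set (Fin k)} {θ o ε : ℝ}
    (ho : o = 1 ∨ o = -1) (hP : P.ncard = 2) (hzPQ : T z = P ∪ Q) (hε : 0 < ε)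
    (hg : ∀ t ∈ Ioo 0 ε, T (z + cis (θ - o * t)) = P)
    (h3 : ∀ y, dist y z = 1 → (T y).ncard ≤ 3) (hQ2 : Q.ncard = 2)
    {y₁ y₂ : ℂ} (hy₁ : dist y₁ z = 1) (hy₂ : dist y₂ z = 1) (hy : y₁ ≠ y₂) (hy' : y₁ + y₂ ≠ 2 * z)
    (hQ₁ : Q ⊆ T y₁) (hQ₂ : Q ⊆ T y₂) :
    ∃ l, ∃ g, 0 < l ∧ ε ≤ l ∧ l ≤ Real.pi / 3 ∧ (∀ t ∈ Ioo 0 l, T (z + cis (θ - o * t)) = P) ∧
      T (z + cis (θ - o * l)) = insert g P ∧ g ∉ T z := by
  obtain ⟨l, hl0, hεl, hl, hlt, hss⟩ := h.exists_arc ho hP (by rw [hzPQ]; exact subset_union_left) hε hg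
  set v := z + cis (θ - o * l) with hv
  have hvz : dist v z = 1 := dist_add_cis z _
  have h3v := h3 v hvz
  obtain ⟨g, hgv, hgP⟩ := exists_of_ssubset hss
  have hT : T v = insert g P := by
    symm
    refine Set.eq_of_subset_of_ncard_le (insert_subset hgv hss.1) ?_ (Set.toFinite _)
    rw [Set.ncard_insert_of_notMem hgP (Set.toFinite _), hP]
    exact h3v
  refine ⟨l, g, hl0, hεl, hl, hlt, hT, fun hgz => ?_⟩
  have hgQ : g ∈ Q := by
    rw [hzPQ] at hgz
    rcases hgz with h4 | h4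
    · exact absurd h4 hgP
    · exact h4
  obtain ⟨a, b, hab, hQab⟩ := Set.ncard_eq_two.1 hQ2
  -- the fourth colour
  obtain ⟨d, hdQ, hcov⟩ : ∃ d ∈ Q, Q ⊆ {g, d} := by
    rw [hQab] at hgQ
    rcases hgQ with rfl | hgb
    · exact ⟨b, by rw [hQab]; simp, by rw [hQab]⟩
    · have hgb : g = b := hgb
      exact ⟨a, by rw [hQab]; simp, by rw [hQab, hgb, Set.pair_comm]⟩
  have hz' : T z ⊆ insert d (T v) := by
    rw [hzPQ, hT]
    rintro m (hm | hm)
    · exact Or.inr (Or.inr hm)
    · rcases hcov hm with rfl | hm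
      · exact Or.inr (Or.inl rfl)
      · exact Or.inl hm
  by_cases h1 : y₁ ≠ v ∧ y₁ + v ≠ 2 * z
  · exact h.third_notMem hvz h3v hz' hy₁ (h.sub _ (hQ₁ hdQ)) h1.1 h1.2
  · refine h.third_notMem hvz h3v hz' hy₂ (h.sub _ (hQ₂ hdQ)) (fun h5 => ?_) fun h5 => ?_
    · by_cases h6 : y₁ = v
      · exact hy (h6.trans h5.symm)
      · push Not at h1
        exact hy' (by rw [h5]; exact h1 h6)
    · by_cases h6 : y₁ = v
      · exact hy' (by rw [h6, add_comm]; exact h5)
      · push Not at h1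
        exact hy (by linear_combination (h1 h6) - h5)

end Irr

end Vale.Agent.P032.Six
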